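import Mathlib
import Crest.Prelude.Def_FinProb

/-!
# Fourier analysis on the biased cube

Orthonormal characters, Parseval, restrictions, conditional expectations, discrete derivatives
and the Bonami lemma.
-/

namespace Crest.Agent.BC

open Finset

variable {ι : Type*} [Fintype ι] [DecidableEq ι]

/-- Expectation on the `p`-biased cube. -/
noncomputable def E (p : ℝ) (g : (ι → Bool) → ℝ) : ℝ :=
  ∑ ω, Crest.FinProb.bernoulliWeight p ω * g ω

noncomputable def sg (p : ℝ) : ℝ := √(p * (1 - p))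

noncomputable def ch1 (p : ℝ) (b : Bool) : ℝ := (if b then 1 - p else -p) / sg p

noncomputable def chi (p : ℝ) (S : Finset ι) (ω : ι → Bool) : ℝ := ∏ e ∈ S, ch1 p (ω e)

/-- Fourier coefficient. -/
noncomputable def fc (p : ℝ) (g : (ι → Bool) → ℝ) (S : Finset ι) : ℝ :=
  E p fun ω => g ω * chi p S ω

variable {p : ℝ}

omit [DecidableEq ι] in
theorem w_nonneg (h0 : 0 ≤ p) (h1 : p ≤ 1) (ω : ι → Bool) :
    0 ≤ Crest.FinProb.bernoulliWeight p ω :=
  prod_nonneg fun i _ => by split_ifs <;> linarith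

theorem E_prod (f : ι → Bool → ℝ) :
    E p (fun ω => ∏ e, f e (ω e)) = ∏ e, (p * f e true + (1 - p) * f e false) := by
  have h := Finset.prod_univ_sum (fun _ : ι => (univ : Finset Bool))
    (fun e b => (if b then p else 1 - p) * f e b)
  simp only [Fintype.piFinset_univ, Fintype.sum_bool] at h
  simp only [E, Crest.FinProb.bernoulliWeight, ← prod_mul_distrib]
  rw [← h]
  simp

theorem E_add (f g : (ι → Bool) → ℝ) : E p (fun ω => f ω + g ω) = E p f + E p g := by
  simp [E, mul_add, sum_add_distrib]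

theorem E_sub (f g : (ι → Bool) → ℝ) : E p (fun ω => f ω - g ω) = E p f - E p g := by
  simp [E, mul_sub, sum_sub_distrib]

theorem E_const_mul (c : ℝ) (g : (ι → Bool) → ℝ) : E p (fun ω => c * g ω) = c * E p g := by
  simp only [E, mul_sum]
  exact sum_congr rfl fun _ _ => by ring

theorem E_mul_const (c : ℝ) (g : (ι → Bool) → ℝ) : E p (fun ω => g ω * c) = E p g * c := by
  simp only [E, sum_mul]
  exact sum_congr rfl fun _ _ => by ring

theorem E_sum {β : Type*} (s : Finset β) (g : β → (ι → Bool) → ℝ) :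
    E p (fun ω => ∑ b ∈ s, g b ω) = ∑ b ∈ s, E p (g b) := by
  simp only [E, mul_sum]
  exact sum_comm

theorem E_const (c : ℝ) : E p (fun _ : ι → Bool => c) = c := by
  have h := E_prod (p := p) (fun (_ : ι) (_ : Bool) => (1 : ℝ))
  simp only [prod_const_one, mul_one, add_sub_cancel] at h
  have h2 := E_const_mul (p := p) c (fun _ : ι → Bool => (1 : ℝ))
  simpa [h] using h2

theorem E_mono (h0 : 0 ≤ p) (h1 : p ≤ 1) {f g : (ι → Bool) → ℝ} (h : ∀ ω, f ω ≤ g ω) :
    E p f ≤ E p g :=
  sum_le_sum fun ω _ => mul_le_mul_of_nonneg_left (h ω) (w_nonneg h0 h1 ω)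

theorem E_nonneg (h0 : 0 ≤ p) (h1 : p ≤ 1) {f : (ι → Bool) → ℝ} (h : ∀ ω, 0 ≤ f ω) :
    0 ≤ E p f :=
  sum_nonneg fun ω _ => mul_nonneg (w_nonneg h0 h1 ω) (h ω)

theorem abs_E_le (h0 : 0 ≤ p) (h1 : p ≤ 1) (f : (ι → Bool) → ℝ) :
    |E p f| ≤ E p fun ω => |f ω| := by
  refine (abs_sum_le_sum_abs _ _).trans (le_of_eq (sum_congr rfl fun ω _ => ?_))
  rw [abs_mul, abs_of_nonneg (w_nonneg h0 h1 ω)]

theorem E_comm (F : (ι → Bool) → (ι → Bool) → ℝ) :
    E p (fun a => E p fun ω => F a ω) = E p (fun ω => E p fun a => F a ω) := by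
  simp only [E, mul_sum]
  rw [sum_comm]
  exact sum_congr rfl fun _ _ => sum_congr rfl fun _ _ => by ring

/-- Cauchy–Schwarz. -/
theorem E_sq_le (h0 : 0 ≤ p) (h1 : p ≤ 1) {r f g : (ι → Bool) → ℝ} (hf : ∀ ω, 0 ≤ f ω)
    (hg : ∀ ω, 0 ≤ g ω) (h : ∀ ω, r ω ^ 2 = f ω * g ω) : E p r ^ 2 ≤ E p f * E p g :=
  sum_sq_le_sum_mul_sum_of_sq_le_mul _ (fun ω _ => mul_nonneg (w_nonneg h0 h1 ω) (hf ω))
    (fun ω _ => mul_nonneg (w_nonneg h0 h1 ω) (hg ω)) (fun ω _ => le_of_eq (by rw [mul_pow, h]; ring))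

theorem E_comp_perm (τ : Equiv.Perm ι) (g : (ι → Bool) → ℝ) :
    E p (fun ω => g (ω ∘ τ)) = E p g := by
  refine Fintype.sum_equiv (Equiv.arrowCongr τ.symm (Equiv.refl Bool)) _ _ fun ω => ?_
  have h : (Equiv.arrowCongr τ.symm (Equiv.refl Bool)) ω = ω ∘ τ := by
    ext e; simp
  rw [h]
  congr 1
  exact (Equiv.prod_comp τ (fun i => if ω i then p else 1 - p)).symm

theorem E_single (e : ι) (F : Bool → ℝ) :
    E p (fun a => F (a e)) = p * F true + (1 - p) * F false := by
  have h := E_prod (p := p) (fun i b => if i = e then F b else 1)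
  simp only [prod_ite_eq', mem_univ, if_true] at h
  rw [h, prod_eq_single e]
  · simp
  · intro i _ hi
    simp [hi]
  · simp

theorem sg_pos (h0 : 0 < p) (h1 : p < 1) : 0 < sg p :=
  Real.sqrt_pos.2 (mul_pos h0 (sub_pos.2 h1))

theorem sg_sq (h0 : 0 < p) (h1 : p < 1) : sg p ^ 2 = p * (1 - p) :=
  Real.sq_sqrt (mul_pos h0 (sub_pos.2 h1)).le

theorem sg_le_half (h0 : 0 < p) (h1 : p < 1) : sg p ≤ 1 / 2 := by
  have := sg_sq h0 h1
  nlinarith [sg_pos h0 h1, sq_nonneg (p - 1 / 2)]

theorem ch1_mean : p * ch1 p true + (1 - p) * ch1 p false = 0 := by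
  simp only [ch1, if_true, Bool.false_eq_true, if_false]
  ring

theorem ch1_sq (h0 : 0 < p) (h1 : p < 1) :
    p * (ch1 p true * ch1 p true) + (1 - p) * (ch1 p false * ch1 p false) = 1 := by
  have h := sg_sq h0 h1
  have h' := (sg_pos h0 h1).ne'
  simp only [ch1, if_true, Bool.false_eq_true, if_false]
  field_simp
  rw [h]
  ring

theorem ch1_sub : ch1 p true - ch1 p false = 1 / sg p := by
  simp only [ch1, if_true, Bool.false_eq_true, if_false]
  ring

theorem chi_eq_prod (S : Finset ι) (ω : ι → Bool) :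
    chi p S ω = ∏ e, if e ∈ S then ch1 p (ω e) else 1 := by
  rw [chi, prod_ite_mem, univ_inter]

theorem E_chi_mul (h0 : 0 < p) (h1 : p < 1) (S T : Finset ι) :
    E p (fun ω => chi p S ω * chi p T ω) = if S = T then 1 else 0 := by
  simp only [chi_eq_prod, ← prod_mul_distrib]
  rw [E_prod (fun e b => (if e ∈ S then ch1 p b else 1) * (if e ∈ T then ch1 p b else 1))]
  split_ifs with h
  · subst h
    refine prod_eq_one fun e _ => ?_
    by_cases he : e ∈ S
    · simp only [he, if_true]; exact ch1_sq h0 h1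
    · simp [he]
  · obtain ⟨e, he⟩ : ∃ e, ¬ (e ∈ S ↔ e ∈ T) := by
      by_contra hc
      push Not at hc
      exact h (Finset.ext hc)
    refine prod_eq_zero (mem_univ e) ?_
    by_cases hS : e ∈ S
    · have hT : e ∉ T := fun hT => he (iff_of_true hS hT)
      simp only [hS, hT, if_true, if_false, mul_one]
      exact ch1_mean
    · have hT : e ∈ T := by
        by_contra hT
        exact he (iff_of_false hS hT)
      simp only [hS, hT, if_true, if_false, one_mul]
      exact ch1_mean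

omit [Fintype ι] [DecidableEq ι] in
theorem chi_empty (ω : ι → Bool) : chi p ∅ ω = 1 := by simp [chi]

theorem E_chi (h0 : 0 < p) (h1 : p < 1) (S : Finset ι) :
    E p (chi p S) = if S = ∅ then 1 else 0 := by
  have := E_chi_mul h0 h1 S ∅
  simpa [chi_empty] using this

theorem kernel (h0 : 0 < p) (h1 : p < 1) (ω ω' : ι → Bool) :
    Crest.FinProb.bernoulliWeight p ω' * ∑ S, chi p S ω' * chi p S ω
      = if ω' = ω then 1 else 0 := by
  have h := sg_sq h0 h1
  have h' := (sg_pos h0 h1).ne'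
  have e1 : ∑ S : Finset ι, chi p S ω' * chi p S ω
      = ∏ e, (1 + ch1 p (ω' e) * ch1 p (ω e)) := by
    rw [prod_one_add, powerset_univ]
    simp only [chi, prod_mul_distrib]
  rw [e1, Crest.FinProb.bernoulliWeight, ← prod_mul_distrib]
  have e2 : ∀ b' b : Bool, (if b' then p else 1 - p) * (1 + ch1 p b' * ch1 p b)
      = if b' = b then 1 else 0 := by
    intro b' b
    cases b' <;> cases b <;>
      simp only [ch1, if_true, Bool.false_eq_true, if_false, Bool.true_eq_false] <;>
      field_simp <;> rw [h] <;> ring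
  simp only [e2]
  split_ifs with hω
  · subst hω; simp
  · obtain ⟨e, he⟩ := Function.ne_iff.1 hω
    exact prod_eq_zero (mem_univ e) (if_neg he)

theorem expansion (h0 : 0 < p) (h1 : p < 1) (g : (ι → Bool) → ℝ) (ω : ι → Bool) :
    g ω = ∑ S, fc p g S * chi p S ω := by
  simp only [fc, E, sum_mul]
  rw [sum_comm]
  have : ∀ ω', ∑ S : Finset ι, Crest.FinProb.bernoulliWeight p ω' * (g ω' * chi p S ω') * chi p S ω
      = g ω' * if ω' = ω then 1 else 0 := by
    intro ω'
    rw [← kernel h0 h1, mul_sum, mul_sum]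
    exact sum_congr rfl fun _ _ => by ring
  simp [this]

theorem fc_sum (h0 : 0 < p) (h1 : p < 1) (𝒯 : Finset (Finset ι)) (c : Finset ι → ℝ)
    (T : Finset ι) :
    fc p (fun ω => ∑ S ∈ 𝒯, c S * chi p S ω) T = if T ∈ 𝒯 then c T else 0 := by
  simp only [fc, sum_mul, E_sum, mul_assoc, E_const_mul, E_chi_mul h0 h1, mul_ite, mul_one,
    mul_zero, sum_ite_eq']

theorem parseval (h0 : 0 < p) (h1 : p < 1) (g h : (ι → Bool) → ℝ) :
    E p (fun ω => g ω * h ω) = ∑ S, fc p g S * fc p h S := by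
  have : (fun ω => g ω * h ω) = fun ω => ∑ S, fc p g S * (h ω * chi p S ω) := by
    funext ω
    conv_lhs => rw [expansion h0 h1 g ω, sum_mul]
    exact sum_congr rfl fun _ _ => by ring
  rw [this, E_sum]
  simp only [E_const_mul]
  rfl

theorem parseval_sq (h0 : 0 < p) (h1 : p < 1) (g : (ι → Bool) → ℝ) :
    E p (fun ω => g ω ^ 2) = ∑ S, fc p g S ^ 2 := by
  simpa only [sq] using parseval h0 h1 g g

theorem fc_empty (g : (ι → Bool) → ℝ) : fc p g ∅ = E p g := by simp [fc, chi_empty]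

theorem fc_perm (τ : Equiv.Perm ι) {g : (ι → Bool) → ℝ} (hg : ∀ ω, g (ω ∘ τ) = g ω)
    (T : Finset ι) : fc p g (T.map τ.toEmbedding) = fc p g T := by
  rw [fc, fc, ← E_comp_perm τ (fun ω => g ω * chi p T ω)]
  simp only [hg, chi, prod_map]
  rfl

/-! ### Restrictions -/

omit [Fintype ι] in
theorem chi_piecewise (A S : Finset ι) (a ω : ι → Bool) :
    chi p S (A.piecewise a ω) = chi p (S ∩ A) a * chi p (S \ A) ω := by
  rw [chi, ← prod_inter_mul_prod_sdiff S A]
  congr 1
  · exact prod_congr rfl fun e he => by rw [piecewise_eq_of_mem _ _ _ (mem_inter.1 he).2]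
  · exact prod_congr rfl fun e he => by rw [piecewise_eq_of_notMem _ _ _ (mem_sdiff.1 he).2]

theorem E_piecewise (h0 : 0 < p) (h1 : p < 1) (A : Finset ι) (g : (ι → Bool) → ℝ) :
    E p (fun a => E p fun ω => g (A.piecewise a ω)) = E p g := by
  conv_rhs => rw [show g = fun ω => ∑ S, fc p g S * chi p S ω from funext (expansion h0 h1 g)]
  simp only [fun a ω => expansion h0 h1 g (A.piecewise a ω), chi_piecewise, E_sum, E_const_mul,
    E_mul_const, E_chi h0 h1]
  refine sum_congr rfl fun S _ => ?_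
  congr 1
  by_cases hS : S = ∅
  · simp [hS]
  · rw [if_neg hS]
    by_cases h2 : S \ A = ∅
    · have : S ∩ A ≠ ∅ := by
        rw [sdiff_eq_empty_iff_subset] at h2
        rwa [inter_eq_left.2 h2]
      simp [this]
    · simp [h2]

theorem fc_restr (h0 : 0 < p) (h1 : p < 1) (A : Finset ι) (g : (ι → Bool) → ℝ) (a : ι → Bool)
    (T : Finset ι) : fc p (fun ω => g (A.piecewise a ω)) T
      = ∑ S with S \ A = T, fc p g S * chi p (S ∩ A) a := by
  rw [sum_filter]
  simp only [fc, fun ω => expansion h0 h1 g (A.piecewise a ω), chi_piecewise, sum_mul, E_sum,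
    mul_assoc, E_const_mul, E_chi_mul h0 h1, mul_ite, mul_one, mul_zero]

theorem E_fc_restr_sq (h0 : 0 < p) (h1 : p < 1) (A : Finset ι) (g : (ι → Bool) → ℝ)
    (T : Finset ι) : E p (fun a => fc p (fun ω => g (A.piecewise a ω)) T ^ 2)
      = ∑ S with S \ A = T, fc p g S ^ 2 := by
  simp only [fc_restr h0 h1, sq, sum_mul_sum, E_sum]
  refine sum_congr rfl fun S hS => ?_
  have : ∀ S' ∈ univ.filter (fun S => S \ A = T),
      E p (fun a => fc p g S * chi p (S ∩ A) a * (fc p g S' * chi p (S' ∩ A) a))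
        = if S = S' then fc p g S * fc p g S' else 0 := by
    intro S' hS'
    have e : (fun a => fc p g S * chi p (S ∩ A) a * (fc p g S' * chi p (S' ∩ A) a))
        = fun a => (fc p g S * fc p g S') * (chi p (S ∩ A) a * chi p (S' ∩ A) a) := by
      funext a; ring
    rw [e, E_const_mul, E_chi_mul h0 h1]
    have hiff : S ∩ A = S' ∩ A ↔ S = S' := by
      refine ⟨fun h => ?_, fun h => by rw [h]⟩
      rw [← sdiff_union_inter S A, ← sdiff_union_inter S' A, h, (mem_filter.1 hS).2,
        (mem_filter.1 hS').2]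
    simp only [hiff, mul_ite, mul_one, mul_zero]
  rw [sum_congr rfl this, sum_ite_eq, if_pos hS]

/-- Conditional expectation given the coordinates in `B`. -/
noncomputable def cond (p : ℝ) (B : Finset ι) (g : (ι → Bool) → ℝ) (ω : ι → Bool) : ℝ :=
  E p fun a => g (B.piecewise ω a)

theorem fc_cond (h0 : 0 < p) (h1 : p < 1) (B : Finset ι) (g : (ι → Bool) → ℝ) (T : Finset ι) :
    fc p (cond p B g) T = if T ⊆ B then fc p g T else 0 := by
  have : cond p B g = fun ω => ∑ S ∈ B.powerset, fc p g S * chi p S ω := by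
    funext ω
    simp only [cond, fun a => expansion h0 h1 g (B.piecewise ω a), chi_piecewise, E_sum,
      E_const_mul, E_chi h0 h1, sdiff_eq_empty_iff_subset, mul_ite, mul_one, mul_zero]
    rw [← sum_filter]
    refine sum_congr (by ext S; simp) fun S hS => ?_
    rw [inter_eq_left.2 (mem_powerset.1 hS)]
  rw [this, fc_sum h0 h1]
  simp only [mem_powerset]

theorem E_abs_cond_le (h0 : 0 < p) (h1 : p < 1) (B : Finset ι) (g : (ι → Bool) → ℝ) :
    E p (fun ω => |cond p B g ω|) ≤ E p fun ω => |g ω| := by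
  rw [← E_piecewise h0 h1 B (fun ω => |g ω|)]
  exact E_mono h0.le h1.le fun ω => abs_E_le h0.le h1.le _

/-! ### Discrete derivatives -/

/-- The discrete derivative in direction `e`. -/
def D (e : ι) (g : (ι → Bool) → ℝ) (ω : ι → Bool) : ℝ :=
  g (Function.update ω e true) - g (Function.update ω e false)

omit [Fintype ι] in
theorem chi_update_of_notMem {S : Finset ι} {e : ι} (he : e ∉ S) (ω : ι → Bool) (b : Bool) :
    chi p S (Function.update ω e b) = chi p S ω :=
  prod_congr rfl fun i hi => by rw [Function.update_of_ne (ne_of_mem_of_not_mem hi he)]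

omit [Fintype ι] in
theorem chi_insert {S : Finset ι} {e : ι} (he : e ∉ S) (ω : ι → Bool) :
    chi p (insert e S) ω = ch1 p (ω e) * chi p S ω := by
  rw [chi, prod_insert he, chi]

omit [Fintype ι] in
theorem D_chi (S : Finset ι) (e : ι) (ω : ι → Bool) :
    D e (chi p S) ω = if e ∈ S then 1 / sg p * chi p (S.erase e) ω else 0 := by
  split_ifs with he
  · have h2 : e ∉ S.erase e := notMem_erase e S
    rw [D, ← insert_erase he, chi_insert h2, chi_insert h2, chi_update_of_notMem h2,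
      chi_update_of_notMem h2, Function.update_self, Function.update_self, ← sub_mul, ch1_sub,
      insert_erase he]
  · rw [D, chi_update_of_notMem he, chi_update_of_notMem he, sub_self]

theorem fc_D (h0 : 0 < p) (h1 : p < 1) (e : ι) (g : (ι → Bool) → ℝ) (T : Finset ι) :
    sg p * fc p (D e g) T = if e ∈ T then 0 else fc p g (insert e T) := by
  have h' := (sg_pos h0 h1).ne'
  have e1 : D e g = fun ω => ∑ S, fc p g S * D e (chi p S) ω := by
    funext ω
    simp only [D, mul_sub, sum_sub_distrib, ← expansion h0 h1]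
  have e2 : ∀ S, sg p * E p (fun ω => fc p g S * D e (chi p S) ω * chi p T ω)
      = if S = insert e T ∧ e ∉ T then fc p g S else 0 := by
    intro S
    simp only [D_chi]
    by_cases he : e ∈ S
    · simp only [he, if_true, mul_assoc, E_const_mul, E_chi_mul h0 h1]
      have hiff : S.erase e = T ↔ S = insert e T ∧ e ∉ T := by
        constructor
        · rintro rfl
          exact ⟨(insert_erase he).symm, notMem_erase e S⟩
        · rintro ⟨rfl, h⟩
          exact erase_insert h
      simp only [hiff]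
      split_ifs
      · field_simp
      · simp
    · have : ¬ (S = insert e T ∧ e ∉ T) := by
        rintro ⟨rfl, -⟩
        exact he (mem_insert_self _ _)
      simp [he, this, E_const]
  rw [e1, fc]
  simp only [sum_mul, E_sum, mul_sum, e2]
  by_cases heT : e ∈ T
  · simp [heT]
  · simp [heT]

theorem sum_mem_eq (e : ι) (F : Finset ι → ℝ) :
    ∑ T, (if e ∈ T then 0 else F (insert e T)) = ∑ S with e ∈ S, F S := by
  rw [sum_ite, sum_const_zero, zero_add]
  refine sum_bij' (fun T _ => insert e T) (fun S _ => S.erase e) ?_ ?_ ?_ ?_ ?_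
  · intro T _; simp
  · intro S _; simp
  · intro T hT; exact erase_insert (mem_filter.1 hT).2
  · intro S hS; exact insert_erase (mem_filter.1 hS).2
  · intro T _; rfl

theorem E_D_sq (h0 : 0 < p) (h1 : p < 1) (e : ι) (g : (ι → Bool) → ℝ) :
    sg p ^ 2 * E p (fun ω => D e g ω ^ 2) = ∑ S with e ∈ S, fc p g S ^ 2 := by
  rw [parseval_sq h0 h1, mul_sum, ← sum_mem_eq e (fun S => fc p g S ^ 2)]
  refine sum_congr rfl fun T _ => ?_
  rw [← mul_pow, fc_D h0 h1]
  split_ifs <;> simp

theorem sum_E_D_sq (h0 : 0 < p) (h1 : p < 1) (g : (ι → Bool) → ℝ) :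
    sg p ^ 2 * ∑ e, E p (fun ω => D e g ω ^ 2) = ∑ S : Finset ι, (S.card : ℝ) * fc p g S ^ 2 := by
  simp only [mul_sum, E_D_sq h0 h1, sum_filter]
  rw [sum_comm]
  refine sum_congr rfl fun S _ => ?_
  rw [← sum_filter, sum_const, nsmul_eq_mul]
  congr 3
  ext e; simp

theorem E_resample (h0 : 0 < p) (h1 : p < 1) (e : ι) (g : (ι → Bool) → ℝ) :
    E p g = E p fun ω =>
      p * g (Function.update ω e true) + (1 - p) * g (Function.update ω e false) := by
  rw [← E_piecewise h0 h1 {e} g, E_comm]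
  congr 1
  funext ω
  simp only [piecewise_singleton]
  exact E_single e (fun b => g (Function.update ω e b))

/-! ### The Bonami lemma -/

theorem two_point (h0 : 0 < p) (h1 : p < 1) (u v : ℝ) :
    p * (u + ch1 p true * v) ^ 4 + (1 - p) * (u + ch1 p false * v) ^ 4
      ≤ u ^ 4 + 8 * (u ^ 2 * v ^ 2) + (2 / sg p) ^ 2 * v ^ 4 := by
  have h := sg_sq h0 h1
  have hs := sg_pos h0 h1
  obtain ⟨t, rfl⟩ : ∃ t, v = sg p * t := ⟨v / sg p, by field_simp⟩
  have e1 : ch1 p true * (sg p * t) = (1 - p) * t := by simp [ch1]; field_simp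
  have e2 : ch1 p false * (sg p * t) = -p * t := by simp [ch1]; field_simp
  have e3 : (2 / sg p) ^ 2 * (sg p * t) ^ 4 = 4 * (p * (1 - p)) * t ^ 4 := by
    rw [← h]; field_simp; ring
  rw [e1, e2, e3, mul_pow (sg p) t 2, h]
  have hq : 0 < 1 - p := sub_pos.2 h1
  have key : u ^ 4 + 8 * (u ^ 2 * (p * (1 - p) * t ^ 2)) + 4 * (p * (1 - p)) * t ^ 4
      - (p * (u + (1 - p) * t) ^ 4 + (1 - p) * (u + -p * t) ^ 4)
      = p * (1 - p) * (2 * (u * t - (1 - 2 * p) * t ^ 2) ^ 2
        + (1 + 11 * (p * (1 - p))) * t ^ 4) := by ring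
  have : 0 ≤ p * (1 - p) * (2 * (u * t - (1 - 2 * p) * t ^ 2) ^ 2
        + (1 + 11 * (p * (1 - p))) * t ^ 4) := by positivity
  linarith

theorem bonami (h0 : 0 < p) (h1 : p < 1) (J : Finset ι) : ∀ c : Finset ι → ℝ,
    E p (fun ω => (∑ T ∈ J.powerset, c T * chi p T ω) ^ 4)
      ≤ (∑ T ∈ J.powerset, (2 / sg p) ^ T.card * c T ^ 2) ^ 2 := by
  have hs := sg_pos h0 h1
  have hβ : 4 ≤ 2 / sg p := by
    rw [le_div_iff₀ hs]
    linarith [sg_le_half h0 h1]
  induction J using Finset.induction_on with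
  | empty =>
    intro c
    simp only [powerset_empty, sum_singleton, chi_empty, mul_one, E_const, card_empty, pow_zero,
      one_mul]
    exact le_of_eq (by ring)
  | insert e J he ih =>
    intro c
    have hne : ∀ T ∈ J.powerset, e ∉ T := fun T hT h => he (mem_powerset.1 hT h)
    set u : (ι → Bool) → ℝ := fun ω => ∑ T ∈ J.powerset, c T * chi p T ω with hu
    set v : (ι → Bool) → ℝ := fun ω => ∑ T ∈ J.powerset, c (insert e T) * chi p T ω with hv
    have hupd : ∀ ω b, ∑ T ∈ (insert e J).powerset, c T * chi p T (Function.update ω e b)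
        = u ω + ch1 p b * v ω := by
      intro ω b
      rw [sum_powerset_insert he, hu, hv, mul_sum]
      congr 1
      · exact sum_congr rfl fun T hT => by rw [chi_update_of_notMem (hne T hT)]
      · refine sum_congr rfl fun T hT => ?_
        rw [chi_insert (hne T hT), chi_update_of_notMem (hne T hT), Function.update_self]
        ring
    rw [E_resample h0 h1 e]
    simp only [hupd]
    refine (E_mono h0.le h1.le fun ω => two_point h0 h1 (u ω) (v ω)).trans ?_
    rw [E_add, E_add, E_const_mul, E_const_mul, sum_powerset_insert he]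
    have ha := ih c
    have hb := ih fun T => c (insert e T)
    have hc : ∑ T ∈ J.powerset, (2 / sg p) ^ (insert e T).card * c (insert e T) ^ 2
        = 2 / sg p * ∑ T ∈ J.powerset, (2 / sg p) ^ T.card * c (insert e T) ^ 2 := by
      rw [mul_sum]
      refine sum_congr rfl fun T hT => ?_
      rw [card_insert_of_notMem (hne T hT)]
      ring
    rw [hc]
    set a := ∑ T ∈ J.powerset, (2 / sg p) ^ T.card * c T ^ 2
    set b := ∑ T ∈ J.powerset, (2 / sg p) ^ T.card * c (insert e T) ^ 2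
    have ha0 : 0 ≤ a := sum_nonneg fun _ _ => by positivity
    have hb0 : 0 ≤ b := sum_nonneg fun _ _ => by positivity
    have hcs : E p (fun ω => u ω ^ 2 * v ω ^ 2) ^ 2
        ≤ E p (fun ω => u ω ^ 4) * E p (fun ω => v ω ^ 4) :=
      E_sq_le h0.le h1.le (fun ω => by positivity) (fun ω => by positivity) (fun ω => by ring)
    have hab : E p (fun ω => u ω ^ 2 * v ω ^ 2) ≤ a * b := by
      refine le_of_sq_le_sq (hcs.trans ?_) (by positivity)
      rw [mul_pow]
      exact mul_le_mul ha hb (E_nonneg h0.le h1.le fun ω => by positivity) (by positivity)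
    set β := 2 / sg p
    have h3 : β ^ 2 * E p (fun ω => v ω ^ 4) ≤ β ^ 2 * b ^ 2 :=
      mul_le_mul_of_nonneg_left hb (by positivity)
    nlinarith [mul_nonneg ha0 hb0]

/-- Low-degree Fourier mass is controlled by the `L¹` and `L²` norms. -/
theorem low_degree (h0 : 0 < p) (h1 : p < 1) (φ : (ι → Bool) → ℝ) (𝒯 : Finset (Finset ι))
    (d : ℕ) (hd : ∀ T ∈ 𝒯, T.card ≤ d) :
    ∑ T ∈ 𝒯, fc p φ T ^ 2
      ≤ (2 / sg p) ^ d * √(E p fun ω => φ ω ^ 2) * E p fun ω => |φ ω| := by
  have hs := sg_pos h0 h1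
  have hβ : 1 ≤ 2 / sg p := by
    rw [le_div_iff₀ hs]
    linarith [sg_le_half h0 h1]
  set h : (ι → Bool) → ℝ := fun ω => ∑ T ∈ 𝒯, fc p φ T * chi p T ω with hh
  set X := ∑ T ∈ 𝒯, fc p φ T ^ 2 with hX
  have hX0 : 0 ≤ X := sum_nonneg fun _ _ => sq_nonneg _
  have e1 : X = E p fun ω => φ ω * h ω := by
    rw [parseval h0 h1]
    simp only [hh, fc_sum h0 h1, mul_ite, mul_zero, sum_ite_mem, univ_inter, ← sq, hX]
  have e2 : E p (fun ω => h ω ^ 4) ≤ ((2 / sg p) ^ d * X) ^ 2 := by
    have hb := bonami h0 h1 univ (fun T => if T ∈ 𝒯 then fc p φ T else 0)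
    simp only [powerset_univ, ite_mul, zero_mul, sum_ite_mem, univ_inter] at hb
    refine hb.trans (pow_le_pow_left₀ (sum_nonneg fun _ _ => by positivity) ?_ 2)
    rw [hX, mul_sum, ← sum_subset (subset_univ 𝒯) (fun T _ hT => by simp [hT])]
    refine sum_le_sum fun T hT => ?_
    rw [if_pos hT]
    exact mul_le_mul_of_nonneg_right (pow_le_pow_right₀ hβ (hd T hT)) (sq_nonneg _)
  set N1 := E p fun ω => |φ ω| with hN1
  set N2 := E p fun ω => φ ω ^ 2 with hN2
  have hN10 : 0 ≤ N1 := E_nonneg h0.le h1.le fun ω => abs_nonneg _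
  have hN20 : 0 ≤ N2 := E_nonneg h0.le h1.le fun ω => sq_nonneg _
  have c1 : X ^ 2 ≤ N1 * E p fun ω => |φ ω| * h ω ^ 2 := by
    rw [e1]
    refine E_sq_le h0.le h1.le (fun ω => abs_nonneg _) (fun ω => by positivity) fun ω => ?_
    rw [mul_pow, ← mul_assoc, ← sq, sq_abs]
  have c2 : E p (fun ω => |φ ω| * h ω ^ 2) ^ 2 ≤ N2 * E p fun ω => h ω ^ 4 := by
    refine E_sq_le h0.le h1.le (fun ω => sq_nonneg _) (fun ω => by positivity) fun ω => ?_
    rw [mul_pow, sq_abs]
    ring
  have c3 : E p (fun ω => |φ ω| * h ω ^ 2) ≤ √N2 * ((2 / sg p) ^ d * X) := by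
    refine le_of_sq_le_sq (c2.trans ?_) (by positivity)
    rw [mul_pow, Real.sq_sqrt hN20]
    exact mul_le_mul_of_nonneg_left e2 hN20
  rcases hX0.eq_or_lt with h0' | hpos
  · rw [← h0']; positivity
  · have c4 : X * X ≤ ((2 / sg p) ^ d * √N2 * N1) * X := by
      nlinarith [mul_le_mul_of_nonneg_left c3 hN10]
    exact le_of_mul_le_mul_right c4 hpos

end Crest.Agent.BC
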