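import Mathlib

/-!
Smooth dependence of solutions of an ODE on time and initial condition.

* `contDiff_postcomp`: post-composition with a smooth map is smooth on `C(K, E)`.
* `contDiffAt_fixedPoint`: the fixed point of a smooth family of contractions is smooth.
* `exists_smooth_flow`: a smooth vector field with Lipschitz constant `K`, `2 K < 1`, has a flow
  on `(-2, 2) × E` that is jointly smooth.
-/

set_option autoImplicit false

open scoped Topology ContDiff NNReal
open Set

noncomputable section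

namespace Crest.Agent.SmoothFlow

universe u

section Postcomp

variable {K : Type u} [TopologicalSpace K] [CompactSpace K]

/-- pointwise application of a family of linear maps -/
def applyMap {E F : Type u} [NormedAddCommGroup E] [NormedSpace ℝ E]
    [NormedAddCommGroup F] [NormedSpace ℝ F] (A : C(K, E →L[ℝ] F)) (h : C(K, E)) : C(K, F) :=
  ⟨fun t => A t (h t), A.continuous.clm_apply h.continuous⟩

/-- pointwise application as a continuous bilinear map -/
def applyCLM {E F : Type u} [NormedAddCommGroup E] [NormedSpace ℝ E]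
    [NormedAddCommGroup F] [NormedSpace ℝ F] :
    C(K, E →L[ℝ] F) →L[ℝ] (C(K, E) →L[ℝ] C(K, F)) :=
  LinearMap.mkContinuous₂
    (LinearMap.mk₂ ℝ (fun (A : C(K, E →L[ℝ] F)) (h : C(K, E)) => (applyMap A h : C(K, F)))
      (fun A B h => ContinuousMap.ext fun t => by simp [applyMap])
      (fun c A h => ContinuousMap.ext fun t => by simp [applyMap])
      (fun A h k => ContinuousMap.ext fun t => by simp [applyMap])
      (fun c A h => ContinuousMap.ext fun t => by simp [applyMap])) 1
    (fun A h => by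
      rw [one_mul]
      refine (ContinuousMap.norm_le _ (mul_nonneg (norm_nonneg A) (norm_nonneg h))).2 fun t => ?_
      exact ((A t).le_opNorm _).trans
        (mul_le_mul (A.norm_coe_le_norm t) (h.norm_coe_le_norm t) (norm_nonneg _) (norm_nonneg _)))

@[simp] theorem applyCLM_apply {E F : Type u} [NormedAddCommGroup E] [NormedSpace ℝ E]
    [NormedAddCommGroup F] [NormedSpace ℝ F] (A : C(K, E →L[ℝ] F)) (h : C(K, E)) (t : K) :
    applyCLM A h t = A t (h t) := rfl

theorem contDiff_postcomp_nat {E : Type u} [NormedAddCommGroup E] [NormedSpace ℝ E] (n : ℕ) :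
    ∀ {F : Type u} [NormedAddCommGroup F] [NormedSpace ℝ F] (f : C(E, F)),
      ContDiff ℝ n f → ContDiff ℝ n (fun γ : C(K, E) => f.comp γ) := by
  induction n with
  | zero =>
    intro F _ _ f _
    simpa using ContinuousMap.continuous_postcomp f
  | succ n ih =>
    intro F _ _ f hf
    obtain ⟨f', hf', hd⟩ := contDiff_succ_iff_hasFDerivAt.1 (by exact_mod_cast hf)
    let g : C(E, E →L[ℝ] F) := ⟨f', hf'.continuous⟩
    have hg : ContDiff ℝ n (fun γ : C(K, E) => g.comp γ) := ih g hf'
    have : ContDiff ℝ ((n : ℕ) + 1) (fun γ : C(K, E) => f.comp γ) := by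
      refine contDiff_succ_iff_hasFDerivAt.2 ⟨fun γ => applyCLM (g.comp γ), ?_, ?_⟩
      · exact hg.continuousLinearMap_comp (applyCLM (K := K) (E := E) (F := F))
      · intro γ
        rw [hasFDerivAt_iff_isLittleO_nhds_zero, Asymptotics.isLittleO_iff]
        intro ε hε
        obtain ⟨δ, hδ, hδ'⟩ := Metric.continuousAt_iff.1 (hg.continuous.continuousAt (x := γ)) ε hε
        filter_upwards [Metric.ball_mem_nhds (0 : C(K, E)) hδ] with h hh
        rw [mem_ball_zero_iff] at hh
        refine (ContinuousMap.norm_le _ (by positivity)).2 fun t => ?_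
        have key : ∀ y ∈ Metric.ball (γ t) δ, ‖f' y - f' (γ t)‖ ≤ ε := by
          intro y hy
          have h1 : dist (γ + ContinuousMap.const K (y - γ t)) γ < δ := by
            rw [dist_eq_norm, add_sub_cancel_left]
            refine lt_of_le_of_lt ((ContinuousMap.norm_le _ (norm_nonneg (y - γ t))).2
              fun s => le_rfl) ?_
            rwa [← dist_eq_norm]
          have h2 := (hδ' h1).le
          rw [dist_eq_norm] at h2
          have h3 := (ContinuousMap.norm_coe_le_norm _ t).trans h2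
          simpa [g] using h3
        have hmem : γ t + h t ∈ Metric.ball (γ t) δ := by
          rw [mem_ball_iff_norm, add_sub_cancel_left]
          exact lt_of_le_of_lt (h.norm_coe_le_norm t) hh
        have := (convex_ball (γ t) δ).norm_image_sub_le_of_norm_hasFDerivWithin_le'
          (f := f) (f' := f') (φ := f' (γ t)) (fun x _ => (hd x).hasFDerivWithinAt) key
          (Metric.mem_ball_self hδ) hmem
        rw [add_sub_cancel_left] at this
        refine le_trans (le_of_eq ?_) (this.trans ?_)
        · simp [g]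
        · exact mul_le_mul_of_nonneg_left (h.norm_coe_le_norm t) hε.le
    exact_mod_cast this

theorem contDiff_postcomp {E F : Type u} [NormedAddCommGroup E] [NormedSpace ℝ E]
    [NormedAddCommGroup F] [NormedSpace ℝ F] (f : C(E, F)) (hf : ContDiff ℝ ∞ f) :
    ContDiff ℝ ∞ (fun γ : C(K, E) => f.comp γ) :=
  contDiff_infty.2 fun n => contDiff_postcomp_nat n f (contDiff_infty.1 hf n)

end Postcomp

section FixedPoint

variable {P B : Type*} [NormedAddCommGroup P] [NormedSpace ℝ P] [CompleteSpace P]
  [NormedAddCommGroup B] [NormedSpace ℝ B] [CompleteSpace B]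

/-- The fixed point of a smooth family of maps that are contractions near the parameter `p₀`
depends smoothly on the parameter. -/
theorem contDiffAt_fixedPoint (T : P × B → B) (hT : ContDiff ℝ ∞ T) (Γ : P → B) (p₀ : P)
    (k : ℝ≥0) (hk : k < 1) (hlip : LipschitzWith k (fun b => T (p₀, b)))
    (hfix : T (p₀, Γ p₀) = Γ p₀)
    (huniq : ∀ᶠ p in 𝓝 p₀, ∀ b, T (p, b) = b → b = Γ p) : ContDiffAt ℝ ∞ Γ p₀ := by
  let G : P × B → B := fun v => v.2 - T v
  have hG : ContDiff ℝ ∞ G := contDiff_snd.sub hT
  have hTd : Differentiable ℝ T := hT.differentiable (by simp)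
  set u : P × B := (p₀, Γ p₀) with hu
  have hD : HasFDerivAt (fun b => T (p₀, b)) (fderiv ℝ T u ∘L ContinuousLinearMap.inr ℝ P B)
      (Γ p₀) := (hTd u).hasFDerivAt.comp (Γ p₀) (hasFDerivAt_prodMk_right p₀ (Γ p₀))
  have hnorm : ‖fderiv ℝ T u ∘L ContinuousLinearMap.inr ℝ P B‖ < 1 := by
    refine lt_of_le_of_lt (hD.le_of_lipschitz hlip) ?_
    exact_mod_cast hk
  have hGd : fderiv ℝ G u ∘L ContinuousLinearMap.inr ℝ P B =
      1 - fderiv ℝ T u ∘L ContinuousLinearMap.inr ℝ P B := by
    have : HasFDerivAt G (ContinuousLinearMap.snd ℝ P B - fderiv ℝ T u) u :=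
      (hasFDerivAt_snd).sub (hTd u).hasFDerivAt
    rw [this.fderiv]
    ext b
    simp
  have hinv : (fderiv ℝ G u ∘L ContinuousLinearMap.inr ℝ P B).IsInvertible := by
    rw [hGd]
    exact ⟨ContinuousLinearEquiv.unitsEquiv ℝ B (Units.oneSub _ hnorm), rfl⟩
  have h1 := (hG.contDiffAt (x := u)).contDiffAt_implicitFunction (by simp) hinv
  have h2 := (hG.contDiffAt (x := u)).eventually_apply_implicitFunction (by simp) hinv
  refine h1.congr_of_eventuallyEq ?_
  filter_upwards [h2, huniq] with p hp hp'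
  have hGu : G u = 0 := sub_eq_zero.2 hfix.symm
  rw [hGu] at hp
  exact (hp' _ (sub_eq_zero.1 hp).symm).symm

end FixedPoint

section Flow

variable {E : Type} [NormedAddCommGroup E] [NormedSpace ℝ E] [CompleteSpace E]

/-- the parameter interval -/
abbrev J : Type := Set.Icc (-1 : ℝ) 1

theorem neg_one_le_one' : (-1 : ℝ) ≤ 1 := by norm_num

/-- extension of a path on `[-1, 1]` to the line -/
def ext (γ : C(J, E)) (r : ℝ) : E := γ (Set.projIcc (-1) 1 neg_one_le_one' r)

omit [NormedSpace ℝ E] [CompleteSpace E] in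
theorem continuous_ext (γ : C(J, E)) : Continuous (ext γ) :=
  γ.continuous.comp continuous_projIcc

omit [NormedSpace ℝ E] [CompleteSpace E] in
theorem ext_of_mem (γ : C(J, E)) {r : ℝ} (hr : r ∈ Set.Icc (-1 : ℝ) 1) : ext γ r = γ ⟨r, hr⟩ := by
  rw [ext, Set.projIcc_of_mem _ hr]

/-- the primitive of a path -/
def prim (γ : C(J, E)) : C(J, E) :=
  ⟨fun s => ∫ r in (0 : ℝ)..(s : ℝ), ext γ r,
    (intervalIntegral.continuous_primitive
      (fun a b => (continuous_ext γ).intervalIntegrable a b) 0).comp continuous_subtype_val⟩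

/-- the primitive as a continuous linear map -/
def primCLM : C(J, E) →L[ℝ] C(J, E) :=
  LinearMap.mkContinuous
    { toFun := prim
      map_add' := fun γ η => by
        ext s
        simp only [prim, ContinuousMap.coe_mk, ContinuousMap.add_apply]
        rw [← intervalIntegral.integral_add ((continuous_ext γ).intervalIntegrable _ _)
          ((continuous_ext η).intervalIntegrable _ _)]
        rfl
      map_smul' := fun c γ => by
        ext s
        simp only [prim, ContinuousMap.coe_mk, ContinuousMap.smul_apply, RingHom.id_apply]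
        rw [← intervalIntegral.integral_smul]
        rfl } 1
    (fun γ => by
      rw [one_mul]
      refine (ContinuousMap.norm_le _ (norm_nonneg _)).2 fun s => ?_
      have h := intervalIntegral.norm_integral_le_of_norm_le_const (a := 0) (b := (s : ℝ))
        (C := ‖γ‖) (f := ext γ) (fun x _ => γ.norm_coe_le_norm _)
      refine h.trans ?_
      have : |(s : ℝ) - 0| ≤ 1 := by rw [sub_zero]; exact abs_le.2 s.2
      exact mul_le_of_le_one_right (norm_nonneg _) this)

omit [CompleteSpace E] in
theorem primCLM_apply (γ : C(J, E)) (s : J) :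
    primCLM γ s = ∫ r in (0 : ℝ)..(s : ℝ), ext γ r := rfl

omit [CompleteSpace E] in
theorem norm_primCLM_le (γ : C(J, E)) : ‖primCLM γ‖ ≤ ‖γ‖ := by
  have : ‖(primCLM : C(J, E) →L[ℝ] C(J, E))‖ ≤ 1 := LinearMap.mkContinuous_norm_le _ zero_le_one _
  have h := (primCLM : C(J, E) →L[ℝ] C(J, E)).le_opNorm γ
  exact h.trans (mul_le_of_le_one_left (norm_nonneg _) this)

/-- the Picard operator with parameters (time scale, starting point) -/
def picard (X : C(E, E)) (v : (ℝ × E) × C(J, E)) : C(J, E) :=
  ContinuousMap.const J v.1.2 + v.1.1 • primCLM (X.comp v.2)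

omit [CompleteSpace E] in
theorem contDiff_picard (X : C(E, E)) (hX : ContDiff ℝ ∞ X) : ContDiff ℝ ∞ (picard X) := by
  unfold picard
  refine ContDiff.add ?_ (ContDiff.smul (contDiff_fst.comp contDiff_fst) ?_)
  · exact (ContinuousLinearMap.const ℝ J (M := E)).contDiff.comp (contDiff_snd.comp contDiff_fst)
  · have h1 : ContDiff ℝ ∞ (fun γ : C(J, E) => X.comp γ) := contDiff_postcomp X hX
    have h2 : ContDiff ℝ ∞ (fun v : (ℝ × E) × C(J, E) => X.comp v.2) := h1.comp contDiff_snd
    exact (primCLM (E := E)).contDiff.comp h2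

omit [CompleteSpace E] in
theorem lipschitz_picard (X : C(E, E)) {K : ℝ≥0} (hK : LipschitzWith K X) (p : ℝ × E)
    (hp : |p.1| ≤ 2) : LipschitzWith (2 * K) (fun γ => picard X (p, γ)) := by
  refine LipschitzWith.of_dist_le_mul fun γ η => ?_
  simp only [picard, dist_eq_norm]
  rw [add_sub_add_left_eq_sub, ← smul_sub, ← map_sub, norm_smul, Real.norm_eq_abs]
  have h1 : ‖X.comp γ - X.comp η‖ ≤ K * ‖γ - η‖ := by
    refine (ContinuousMap.norm_le _ (by positivity)).2 fun s => ?_
    have := hK.dist_le_mul (γ s) (η s)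
    rw [dist_eq_norm, dist_eq_norm] at this
    refine this.trans (mul_le_mul_of_nonneg_left ?_ K.2)
    exact (γ - η).norm_coe_le_norm s
  calc |p.1| * ‖primCLM (X.comp γ - X.comp η)‖ ≤ 2 * (K * ‖γ - η‖) :=
        mul_le_mul hp ((norm_primCLM_le _).trans h1) (norm_nonneg _) (by norm_num)
    _ = _ := by push_cast; ring

/-- **Smooth flow.** A smooth vector field with Lipschitz constant `K`, `2 K < 1`, has a flow on
`(-2, 2) × E`, jointly smooth in time and starting point. -/
theorem exists_smooth_flow (X : E → E) (hX : ContDiff ℝ ∞ X) {K : ℝ≥0} (hK : LipschitzWith K X)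
    (hK1 : 2 * K < 1) :
    ∃ φ : ℝ × E → E, (∀ p : ℝ × E, |p.1| < 2 → ContDiffAt ℝ ∞ φ p) ∧ (∀ z, φ (0, z) = z) ∧
      ∀ z, ∀ t : ℝ, |t| < 2 → HasDerivAt (fun s => φ (s, z)) (X (φ (t, z))) t := by
  let Y : C(E, E) := ⟨X, hX.continuous⟩
  have hex : ∀ p : ℝ × E, ∃ γ : C(J, E), |p.1| ≤ 2 →
      picard Y (p, γ) = γ ∧ ∀ η, picard Y (p, η) = η → η = γ := by
    intro p
    by_cases hp : |p.1| ≤ 2
    · have hc : ContractingWith (2 * K) (fun γ => picard Y (p, γ)) :=
        ⟨hK1, lipschitz_picard Y hK p hp⟩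
      exact ⟨ContractingWith.fixedPoint _ hc, fun _ =>
        ⟨hc.fixedPoint_isFixedPt, fun η hη => hc.fixedPoint_unique hη⟩⟩
    · exact ⟨0, fun h => absurd h hp⟩
  choose Γ hΓ using hex
  let one : J := ⟨1, by norm_num, le_rfl⟩
  have hscale : ∀ (τ : ℝ) (z : E), |τ| ≤ 2 → ∀ σ : J, Γ (τ * σ, z) one = Γ (τ, z) σ := by
    intro τ z hτ σ
    have hσ : |(σ : ℝ)| ≤ 1 := abs_le.2 σ.2
    have hmem : ∀ r : ℝ, r ∈ Set.Icc (-1 : ℝ) 1 → (σ : ℝ) * r ∈ Set.Icc (-1 : ℝ) 1 := by
      intro r hr
      refine abs_le.1 ?_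
      rw [abs_mul]
      exact mul_le_one₀ hσ (abs_nonneg _) (abs_le.2 hr)
    let m : C(J, J) := ⟨fun r => ⟨σ * r, hmem r r.2⟩, by fun_prop⟩
    have hτσ : |τ * σ| ≤ 2 := by
      rw [abs_mul]
      exact (mul_le_of_le_one_right (abs_nonneg _) hσ).trans hτ
    have h1 := (hΓ (τ * σ, z) hτσ).2 ((Γ (τ, z)).comp m) (by
      ext r
      have h2 := congrArg (fun γ : C(J, E) => γ (m r)) (hΓ (τ, z) hτ).1
      simp only [picard, ContinuousMap.add_apply, ContinuousMap.const_apply,
        ContinuousMap.smul_apply, primCLM_apply, ContinuousMap.comp_apply] at h2 ⊢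
      rw [← h2, mul_smul]
      congr 2
      have h3 := intervalIntegral.smul_integral_comp_mul_left (a := 0) (b := (r : ℝ))
        (ext (Y.comp (Γ (τ, z)))) (σ : ℝ)
      rw [mul_zero] at h3
      change _ = ∫ x in (0 : ℝ)..((σ : ℝ) * r), _
      rw [← h3]
      congr 1
      refine intervalIntegral.integral_congr fun x hx => ?_
      have hx' : x ∈ Set.Icc (-1 : ℝ) 1 :=
        Set.uIcc_subset_Icc (by norm_num) r.2 hx
      rw [ext_of_mem _ hx', ext_of_mem _ (hmem x hx')]
      rfl)
    rw [← h1]
    simp [m, one]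
  refine ⟨fun p => Γ p one, fun p hp => ?_, fun z => ?_, fun z t ht => ?_⟩
  · have h1 : ContDiffAt ℝ ∞ Γ p := by
      refine contDiffAt_fixedPoint (picard Y) (contDiff_picard Y hX) Γ p (2 * K) hK1
        (lipschitz_picard Y hK p hp.le) (hΓ p hp.le).1 ?_
      have : ∀ᶠ q : ℝ × E in 𝓝 p, |q.1| < 2 :=
        (continuous_abs.comp continuous_fst).continuousAt.eventually_lt continuousAt_const hp
      filter_upwards [this] with q hq
      exact (hΓ q hq.le).2
    exact (ContinuousMap.evalCLM ℝ one).contDiff.contDiffAt.comp p h1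
  · have h2 := congrArg (fun γ : C(J, E) => γ one) (hΓ (0, z) (by simp)).1
    simpa [picard] using h2.symm
  · have hmem : ∀ s : ℝ, |s| < 2 → s / 2 ∈ Set.Icc (-1 : ℝ) 1 := by
      intro s hs
      have := abs_lt.1 hs
      constructor <;> linarith [this.1, this.2]
    have hval : ∀ s (hs : |s| < 2), Γ (s, z) one = Γ (2, z) ⟨s / 2, hmem s hs⟩ := by
      intro s hs
      rw [← hscale 2 z (by simp) ⟨s / 2, hmem s hs⟩]
      congr 3
      simp only
      ring
    have hev : (fun s => Γ (s, z) one) =ᶠ[𝓝 t]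
        fun s => z + (2 : ℝ) • ∫ r in (0 : ℝ)..(s / 2), ext (Y.comp (Γ (2, z))) r := by
      have : ∀ᶠ s : ℝ in 𝓝 t, |s| < 2 :=
        continuous_abs.continuousAt.eventually_lt continuousAt_const ht
      filter_upwards [this] with s hs
      rw [hval s hs]
      have h2 := congrArg (fun γ : C(J, E) => γ ⟨s / 2, hmem s hs⟩) (hΓ (2, z) (by simp)).1
      simp only [picard, ContinuousMap.add_apply, ContinuousMap.const_apply,
        ContinuousMap.smul_apply, primCLM_apply] at h2
      exact h2.symm
    refine HasDerivAt.congr_of_eventuallyEq ?_ hev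
    have hc := continuous_ext (Y.comp (Γ (2, z)))
    have h1 := (hc.integral_hasStrictDerivAt 0 (t / 2)).hasDerivAt
    have h2 := ((h1.scomp t ((hasDerivAt_id t).div_const 2)).const_smul (2 : ℝ)).const_add z
    refine HasDerivAt.congr_deriv h2 ?_
    change _ = X (Γ (t, z) one)
    rw [smul_smul, ext_of_mem _ (hmem t ht), hval t ht]
    simp [Y]

end Flow

end Crest.Agent.SmoothFlow
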